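import Mathlib

/-!
Core lemma for P096: a closed commutative star subalgebra of a unital C-star algebra
stays at distance at least one from some point of the circle of symmetries spanned by two
anticommuting symmetries.
-/

namespace Vale.Agent.Lib.P096

section Core

variable {B : Type*} [CStarAlgebra B]

/-- The circle of symmetries through two anticommuting symmetries. -/
noncomputable def symPath (s₁ s₂ : B) (θ : ℝ) : B :=
  (Real.cos θ : ℂ) • s₁ + (Real.sin θ : ℂ) • s₂

theorem symPath_continuous (s₁ s₂ : B) : Continuous (symPath s₁ s₂) := by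
  unfold symPath
  fun_prop

theorem symPath_star (s₁ s₂ : B) (hs₁ : star s₁ = s₁) (hs₂ : star s₂ = s₂) (θ : ℝ) :
    star (symPath s₁ s₂ θ) = symPath s₁ s₂ θ := by
  simp only [symPath, star_add, star_smul, hs₁, hs₂, Complex.star_def, Complex.conj_ofReal]

theorem symPath_sq (s₁ s₂ : B) (hu₁ : s₁ * s₁ = 1) (hu₂ : s₂ * s₂ = 1)
    (hanti : s₁ * s₂ = -(s₂ * s₁)) (θ : ℝ) :
    symPath s₁ s₂ θ * symPath s₁ s₂ θ = 1 := by
  have h : ((Real.cos θ : ℂ) * (Real.cos θ : ℂ) + (Real.sin θ : ℂ) * (Real.sin θ : ℂ)) = 1 := by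
    rw [← Complex.ofReal_mul, ← Complex.ofReal_mul, ← Complex.ofReal_add, ← sq, ← sq,
      Real.cos_sq_add_sin_sq]
    simp
  simp only [symPath, add_mul, mul_add, smul_mul_assoc, mul_smul_comm, hu₁, hu₂, hanti,
    smul_neg]
  calc _ = ((Real.cos θ : ℂ) * (Real.cos θ : ℂ) + (Real.sin θ : ℂ) * (Real.sin θ : ℂ)) • (1 : B) := by
        module
    _ = 1 := by rw [h, one_smul]

theorem symPath_add_pi (s₁ s₂ : B) (θ : ℝ) :
    symPath s₁ s₂ (θ + Real.pi) = -symPath s₁ s₂ θ := by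
  simp only [symPath, Real.cos_add_pi, Real.sin_add_pi, Complex.ofReal_neg, neg_smul]
  abel

theorem symPath_norm [Nontrivial B] (s₁ s₂ : B) (hs₁ : star s₁ = s₁) (hs₂ : star s₂ = s₂)
    (hu₁ : s₁ * s₁ = 1) (hu₂ : s₂ * s₂ = 1) (hanti : s₁ * s₂ = -(s₂ * s₁)) (θ : ℝ) :
    ‖symPath s₁ s₂ θ‖ = 1 := by
  have h := CStarRing.norm_star_mul_self (x := symPath s₁ s₂ θ)
  rw [symPath_star s₁ s₂ hs₁ hs₂, symPath_sq s₁ s₂ hu₁ hu₂ hanti, norm_one] at h
  nlinarith [norm_nonneg (symPath s₁ s₂ θ)]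

/-- Core lemma: some symmetry on the circle is at distance at least one from every element of a
closed commutative star subalgebra. -/
theorem exists_far_symmetry [Nontrivial B]
    (S : StarSubalgebra ℂ B) (hS : IsClosed (S : Set B))
    (hcomm : ∀ a ∈ S, ∀ b ∈ S, a * b = b * a)
    (s₁ s₂ : B) (hs₁ : star s₁ = s₁) (hs₂ : star s₂ = s₂)
    (hu₁ : s₁ * s₁ = 1) (hu₂ : s₂ * s₂ = 1)
    (hanti : s₁ * s₂ = -(s₂ * s₁)) :
    ∃ θ : ℝ, ∀ y ∈ S, 1 ≤ ‖symPath s₁ s₂ θ - y‖ := by
  have hclosed : IsClosed (S : Set B) := hS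
  let _inst : CommCStarAlgebra S :=
    { StarSubalgebra.cstarAlgebra S with
      mul_comm := fun a b => Subtype.ext (hcomm a a.2 b b.2) }
  have hnontriv : Nontrivial S := ⟨⟨0, 1, fun h => by
    have := congrArg Subtype.val h
    simp at this⟩⟩
  obtain ⟨χ⟩ : Nonempty (WeakDual.characterSpace ℂ S) := inferInstance
  set p : ℝ → B := symPath s₁ s₂ with hp
  have hp_cont : Continuous p := symPath_continuous s₁ s₂
  have hp_star : ∀ θ, star (p θ) = p θ := symPath_star s₁ s₂ hs₁ hs₂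
  have hp_sq : ∀ θ, p θ * p θ = 1 := symPath_sq s₁ s₂ hu₁ hu₂ hanti
  have hp_pi : ∀ θ, p (θ + Real.pi) = -p θ := symPath_add_pi s₁ s₂
  have hp_norm : ∀ θ, ‖p θ‖ = 1 := symPath_norm s₁ s₂ hs₁ hs₂ hu₁ hu₂ hanti
  -- key fact: the real part of the character does not vanish near a symmetry
  have key : ∀ θ, ∀ y : S, ‖p θ - (y : B)‖ < 1 → (χ y).re ≠ 0 := by
    intro θ y hy
    set y' : S := (1 / 2 : ℂ) • (y + star y) with hy'
    have h1 : ‖p θ - (y' : B)‖ < 1 := by
      have e : p θ - (y' : B) = (1 / 2 : ℂ) • ((p θ - y) + star (p θ - (y : B))) := by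
        rw [hy', star_sub, hp_star θ]
        simp only [AddMemClass.coe_add, SetLike.val_smul, StarMemClass.coe_star]
        module
      rw [e, norm_smul]
      calc ‖(1 / 2 : ℂ)‖ * ‖(p θ - (y : B)) + star (p θ - (y : B))‖
          ≤ ‖(1 / 2 : ℂ)‖ * (‖p θ - (y : B)‖ + ‖star (p θ - (y : B))‖) := by
            gcongr; exact norm_add_le _ _
        _ = ‖p θ - (y : B)‖ := by
            have h2 : ‖(1 / 2 : ℂ)‖ = 1 / 2 := by norm_num
            rw [norm_star, h2]; ring
        _ < 1 := hy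
    have hunitB : IsUnit (y' : B) := by
      let u : Bˣ := ⟨p θ, p θ, hp_sq θ, hp_sq θ⟩
      have hlt : ‖(y' : B) - (u : B)‖ < ‖((u⁻¹ : Bˣ) : B)‖⁻¹ := by
        show ‖(y' : B) - p θ‖ < ‖p θ‖⁻¹
        rw [hp_norm θ, inv_one, norm_sub_rev]
        exact h1
      exact (u.ofNearby _ hlt).isUnit
    have hunitS : IsUnit y' := (StarSubalgebra.coe_isUnit S).mp hunitB
    have hχ : χ y' ≠ 0 := (hunitS.map χ).ne_zero
    have hre : χ y' = ((χ y).re : ℂ) := by
      rw [hy', map_smul, map_add, map_star, smul_eq_mul]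
      have := Complex.add_conj (χ y)
      rw [Complex.star_def, this]
      push_cast
      ring
    intro h0
    apply hχ
    rw [hre, h0]
    simp
  by_contra hcon
  push Not at hcon
  let Up : Set ℝ := {θ | ∃ y : S, ‖p θ - (y : B)‖ < 1 ∧ 0 < (χ y).re}
  let Um : Set ℝ := {θ | ∃ y : S, ‖p θ - (y : B)‖ < 1 ∧ (χ y).re < 0}
  have hUp_open : IsOpen Up := by
    rw [isOpen_iff_mem_nhds]
    rintro θ ⟨y, hy, hypos⟩
    have hopen : IsOpen {θ' : ℝ | ‖p θ' - (y : B)‖ < 1} :=
      isOpen_lt (by fun_prop) continuous_const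
    exact Filter.mem_of_superset (hopen.mem_nhds hy) (fun θ' hθ' => ⟨y, hθ', hypos⟩)
  have hUm_open : IsOpen Um := by
    rw [isOpen_iff_mem_nhds]
    rintro θ ⟨y, hy, hyneg⟩
    have hopen : IsOpen {θ' : ℝ | ‖p θ' - (y : B)‖ < 1} :=
      isOpen_lt (by fun_prop) continuous_const
    exact Filter.mem_of_superset (hopen.mem_nhds hy) (fun θ' hθ' => ⟨y, hθ', hyneg⟩)
  have hcover : ∀ θ, θ ∈ Up ∨ θ ∈ Um := by
    intro θ
    obtain ⟨y, hyS, hy⟩ := hcon θ
    rcases lt_trichotomy (χ ⟨y, hyS⟩).re 0 with h | h | h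
    · exact Or.inr ⟨⟨y, hyS⟩, hy, h⟩
    · exact absurd h (key θ ⟨y, hyS⟩ hy)
    · exact Or.inl ⟨⟨y, hyS⟩, hy, h⟩
  have hdisj : ∀ θ, θ ∈ Up → θ ∈ Um → False := by
    rintro θ ⟨y, hy, hypos⟩ ⟨z, hz, hzneg⟩
    have hden : 0 < (χ y).re - (χ z).re := by linarith
    set a : ℝ := -(χ z).re / ((χ y).re - (χ z).re) with ha_def
    set b : ℝ := (χ y).re / ((χ y).re - (χ z).re) with hb_def
    have ha : 0 ≤ a := div_nonneg (by linarith) hden.le
    have hb : 0 ≤ b := div_nonneg hypos.le hden.le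
    have hab : a + b = 1 := by
      rw [ha_def, hb_def]
      field_simp
      ring
    set w : S := (a : ℂ) • y + (b : ℂ) • z with hw_def
    have hw : ‖p θ - (w : B)‖ < 1 := by
      have e : p θ - (w : B) = (a : ℂ) • (p θ - (y : B)) + (b : ℂ) • (p θ - (z : B)) := by
        have hone : p θ = (a : ℂ) • p θ + (b : ℂ) • p θ := by
          rw [← add_smul, ← Complex.ofReal_add, hab]
          simp
        rw [hw_def]
        simp only [AddMemClass.coe_add, SetLike.val_smul, smul_sub]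
        nth_rewrite 1 [hone]
        abel
      rw [e]
      calc ‖(a : ℂ) • (p θ - (y : B)) + (b : ℂ) • (p θ - (z : B))‖
          ≤ ‖(a : ℂ) • (p θ - (y : B))‖ + ‖(b : ℂ) • (p θ - (z : B))‖ := norm_add_le _ _
        _ = a * ‖p θ - (y : B)‖ + b * ‖p θ - (z : B)‖ := by
            rw [norm_smul, norm_smul, Complex.norm_real, Complex.norm_real,
              Real.norm_of_nonneg ha, Real.norm_of_nonneg hb]
        _ < 1 := by
            rcases eq_or_lt_of_le ha with h0 | hpos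
            · have hb1 : b = 1 := by linarith
              rw [← h0, hb1]
              linarith
            · have h3 : a * ‖p θ - (y : B)‖ < a * 1 := mul_lt_mul_of_pos_left hy hpos
              have h4 : b * ‖p θ - (z : B)‖ ≤ b * 1 := mul_le_mul_of_nonneg_left hz.le hb
              linarith
    have hzero : (χ w).re = 0 := by
      rw [hw_def, map_add, map_smul, map_smul]
      simp only [smul_eq_mul, Complex.add_re, Complex.re_ofReal_mul]
      rw [ha_def, hb_def]
      field_simp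
      ring
    exact key θ w hw hzero
  have hshift : ∀ θ, θ ∈ Up → θ + Real.pi ∈ Um := by
    rintro θ ⟨y, hy, hypos⟩
    refine ⟨-y, ?_, ?_⟩
    · rw [hp_pi]
      have : -p θ - ((-y : S) : B) = -(p θ - (y : B)) := by
        simp only [NegMemClass.coe_neg]
        abel
      rw [this, norm_neg]
      exact hy
    · rw [map_neg]
      simpa using hypos
  have hshift' : ∀ θ, θ ∈ Um → θ + Real.pi ∈ Up := by
    rintro θ ⟨y, hy, hyneg⟩
    refine ⟨-y, ?_, ?_⟩
    · rw [hp_pi]
      have : -p θ - ((-y : S) : B) = -(p θ - (y : B)) := by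
        simp only [NegMemClass.coe_neg]
        abel
      rw [this, norm_neg]
      exact hy
    · rw [map_neg]
      simpa using hyneg
  have hpre : IsPreconnected (Set.univ : Set ℝ) := isPreconnected_univ
  have hne1 : ((Set.univ : Set ℝ) ∩ Up).Nonempty := by
    rcases hcover 0 with h | h
    · exact ⟨0, trivial, h⟩
    · exact ⟨0 + Real.pi, trivial, hshift' 0 h⟩
  have hne2 : ((Set.univ : Set ℝ) ∩ Um).Nonempty := by
    rcases hcover 0 with h | h
    · exact ⟨0 + Real.pi, trivial, hshift 0 h⟩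
    · exact ⟨0, trivial, h⟩
  obtain ⟨θ, -, h1, h2⟩ := hpre Up Um hUp_open hUm_open (fun θ _ => hcover θ) hne1 hne2
  exact hdisj θ h1 h2

end Core

end Vale.Agent.Lib.P096
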