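import Mathlib
import Vale.Agent.Lib.P096.Core

/-!
Von Neumann algebra form of the core lemma of P096 and the computation of the
Kadison-Kastler distance.
-/

namespace Vale.Agent.Lib.P096

section VN

variable {H : Type*} [NormedAddCommGroup H] [InnerProductSpace ℂ H] [CompleteSpace H]

theorem vn_isClosed (M : VonNeumannAlgebra H) :
    IsClosed (M.toStarSubalgebra : Set (H →L[ℂ] H)) := by
  have h := M.centralizer_centralizer
  have hc : IsClosed (Set.centralizer (Set.centralizer (M : Set (H →L[ℂ] H)))) :=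
    Set.isClosed_centralizer _
  rw [h] at hc
  exact hc

theorem vn_smul_mem (N : VonNeumannAlgebra H) (c : ℂ) {x : H →L[ℂ] H} (hx : x ∈ N) :
    c • x ∈ N :=
  N.toStarSubalgebra.smul_mem hx c

theorem symPath_mem (N : VonNeumannAlgebra H) {s₁ s₂ : H →L[ℂ] H} (h₁ : s₁ ∈ N) (h₂ : s₂ ∈ N)
    (θ : ℝ) : symPath s₁ s₂ θ ∈ N :=
  add_mem (vn_smul_mem N _ h₁) (vn_smul_mem N _ h₂)

/-- A commutative von Neumann algebra stays at distance at least one from some symmetry of any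
von Neumann algebra containing two anticommuting symmetries. -/
theorem exists_far_symmetry_vn [Nontrivial H] (M N : VonNeumannAlgebra H)
    (hM : ∀ a ∈ M, ∀ b ∈ M, a * b = b * a)
    (s₁ s₂ : H →L[ℂ] H) (h₁ : s₁ ∈ N) (h₂ : s₂ ∈ N)
    (hs₁ : star s₁ = s₁) (hs₂ : star s₂ = s₂) (hu₁ : s₁ * s₁ = 1) (hu₂ : s₂ * s₂ = 1)
    (hanti : s₁ * s₂ = -(s₂ * s₁)) :
    ∃ x ∈ N, star x = x ∧ x * x = 1 ∧ ∀ y ∈ M, 1 ≤ ‖x - y‖ := by
  obtain ⟨θ, hθ⟩ := exists_far_symmetry M.toStarSubalgebra (vn_isClosed M) hM s₁ s₂ hs₁ hs₂ hu₁ hu₂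
    hanti
  exact ⟨symPath s₁ s₂ θ, symPath_mem N h₁ h₂ θ, symPath_star s₁ s₂ hs₁ hs₂ θ,
    symPath_sq s₁ s₂ hu₁ hu₂ hanti θ, hθ⟩

/-- The Hausdorff distance of the unit balls is one as soon as one ball contains a point at
distance at least one from the other algebra. -/
theorem hausdorffDist_unitBall_eq_one (M N : VonNeumannAlgebra H)
    (h : ∃ x ∈ N, ‖x‖ ≤ 1 ∧ ∀ y ∈ M, 1 ≤ ‖x - y‖) :
    Metric.hausdorffDist {x : H →L[ℂ] H | x ∈ M ∧ ‖x‖ ≤ 1} {x : H →L[ℂ] H | x ∈ N ∧ ‖x‖ ≤ 1}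
      = 1 := by
  have hMne : ({x : H →L[ℂ] H | x ∈ M ∧ ‖x‖ ≤ 1}).Nonempty := ⟨0, zero_mem M, by simp⟩
  have hNne : ({x : H →L[ℂ] H | x ∈ N ∧ ‖x‖ ≤ 1}).Nonempty := ⟨0, zero_mem N, by simp⟩
  have hMb : Bornology.IsBounded {x : H →L[ℂ] H | x ∈ M ∧ ‖x‖ ≤ 1} :=
    (Metric.isBounded_closedBall (x := (0 : H →L[ℂ] H)) (r := 1)).subset
      (fun x hx => by simpa using hx.2)
  have hNb : Bornology.IsBounded {x : H →L[ℂ] H | x ∈ N ∧ ‖x‖ ≤ 1} :=
    (Metric.isBounded_closedBall (x := (0 : H →L[ℂ] H)) (r := 1)).subset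
      (fun x hx => by simpa using hx.2)
  apply le_antisymm
  · refine Metric.hausdorffDist_le_of_mem_dist zero_le_one ?_ ?_
    · intro x hx
      exact ⟨0, ⟨zero_mem N, by simp⟩, by simpa [dist_eq_norm] using hx.2⟩
    · intro x hx
      exact ⟨0, ⟨zero_mem M, by simp⟩, by simpa [dist_eq_norm] using hx.2⟩
  · by_contra hlt
    push Not at hlt
    obtain ⟨x, hxN, hx1, hfar⟩ := h
    obtain ⟨y, hy, hd⟩ := Metric.exists_dist_lt_of_hausdorffDist_lt'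
      (show x ∈ {x : H →L[ℂ] H | x ∈ N ∧ ‖x‖ ≤ 1} from ⟨hxN, hx1⟩) hlt
      (Metric.hausdorffEDist_ne_top_of_nonempty_of_bounded hMne hNne hMb hNb)
    have := hfar y hy.1
    rw [dist_eq_norm, norm_sub_rev] at hd
    linarith

end VN

end Vale.Agent.Lib.P096
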