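import Mathlib
import Vale.Agent.Lib.P096.VN

/-!
Second core lemma for P096: a closed commutative star subalgebra stays at distance at least one
from some symmetry `1 - 2 q`, where `q` runs through a path of projections joining the two
orthogonal projections `star v * v` and `v * star v` of an element `v` with
`v * star v * v = v` and `v * v = 0`.
-/

namespace Vale.Agent.Lib.P096

section Transport

variable {B : Type*} [CStarAlgebra B]

/-- The self-adjoint part of an approximant of a self-adjoint element is again an approximant. -/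
theorem sa_part_close (S : StarSubalgebra ℂ B) {x y : B} (hx : star x = x) (hy : y ∈ S)
    (h : ‖x - y‖ < 1) :
    (1 / 2 : ℂ) • (y + star y) ∈ S ∧
      star ((1 / 2 : ℂ) • (y + star y)) = (1 / 2 : ℂ) • (y + star y) ∧
      ‖x - (1 / 2 : ℂ) • (y + star y)‖ < 1 := by
  refine ⟨S.smul_mem (add_mem hy (star_mem hy)) _, ?_, ?_⟩
  · have h2 : star (1 / 2 : ℂ) = 1 / 2 := by
      rw [Complex.star_def, map_div₀, map_one, map_ofNat]
    rw [star_smul, star_add, star_star, h2, add_comm]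
  · have e : x - (1 / 2 : ℂ) • (y + star y) = (1 / 2 : ℂ) • ((x - y) + star (x - y)) := by
      rw [star_sub, hx]
      module
    rw [e, norm_smul]
    calc ‖(1 / 2 : ℂ)‖ * ‖(x - y) + star (x - y)‖
        ≤ ‖(1 / 2 : ℂ)‖ * (‖x - y‖ + ‖star (x - y)‖) := by
          gcongr
          exact norm_add_le _ _
      _ = ‖x - y‖ := by
          have h2 : ‖(1 / 2 : ℂ)‖ = 1 / 2 := by norm_num
          rw [norm_star, h2]
          ring
      _ < 1 := h

/-- Transport of a negative character value along a path of symmetries all of whose points are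
at distance less than one from a closed commutative star subalgebra `S`. -/
theorem neg_transport [Nontrivial B]
    (S : StarSubalgebra ℂ B) (hS : IsClosed (S : Set B))
    (hcomm : ∀ a ∈ S, ∀ b ∈ S, a * b = b * a)
    (p : ℝ → B) (hp_cont : Continuous p) (hp_star : ∀ θ, star (p θ) = p θ)
    (hp_sq : ∀ θ, p θ * p θ = 1)
    (hnear : ∀ θ, ∃ y ∈ S, ‖p θ - y‖ < 1)
    (θ₀ θ₁ : ℝ) (y₀ : B) (hy₀ : y₀ ∈ S) (h₀ : ‖p θ₀ - y₀‖ < 1) (m : ℝ) (hm : m < 0)
    (hnu : ¬ IsUnit (y₀ - algebraMap ℂ B (m : ℂ))) :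
    ∃ y₁ ∈ S, ∃ m₁ : ℝ, m₁ < 0 ∧ star y₁ = y₁ ∧ ‖p θ₁ - y₁‖ < 1 ∧
      ¬ IsUnit (star (y₀ - algebraMap ℂ B (m : ℂ)) * (y₀ - algebraMap ℂ B (m : ℂ)) +
        star (y₁ - algebraMap ℂ B (m₁ : ℂ)) * (y₁ - algebraMap ℂ B (m₁ : ℂ))) := by
  have hclosed : IsClosed (S : Set B) := hS
  let _inst : CommCStarAlgebra S :=
    { StarSubalgebra.cstarAlgebra S with
      mul_comm := fun a b => Subtype.ext (hcomm a a.2 b b.2) }
  have hp_norm : ∀ θ, ‖p θ‖ = 1 := by
    intro θ
    have h := CStarRing.norm_star_mul_self (x := p θ)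
    rw [hp_star θ, hp_sq θ, norm_one] at h
    nlinarith [norm_nonneg (p θ)]
  -- the character
  set a₀ : S := ⟨y₀, hy₀⟩ - algebraMap ℂ S (m : ℂ) with ha₀
  have ha₀coe : (a₀ : B) = y₀ - algebraMap ℂ B (m : ℂ) := rfl
  have hnuS : ¬ IsUnit a₀ := by
    intro h
    apply hnu
    rw [← ha₀coe]
    exact (StarSubalgebra.coe_isUnit S).mpr h
  obtain ⟨χ, hχ⟩ := WeakDual.CharacterSpace.exists_apply_eq_zero hnuS
  have hχalg : ∀ c : ℂ, χ (algebraMap ℂ S c) = c := by
    intro c
    rw [Algebra.algebraMap_eq_smul_one, map_smul, map_one, smul_eq_mul, mul_one]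
  have hχy₀ : χ ⟨y₀, hy₀⟩ = (m : ℂ) := by
    rw [ha₀, map_sub, hχalg] at hχ
    exact sub_eq_zero.1 hχ
  -- key fact: the real part of the character does not vanish near a symmetry
  have key : ∀ θ, ∀ y : S, ‖p θ - (y : B)‖ < 1 → (χ y).re ≠ 0 := by
    intro θ y hy
    set y' : S := (1 / 2 : ℂ) • (y + star y) with hy'
    have h1 : ‖p θ - (y' : B)‖ < 1 := by
      have h := (sa_part_close S (hp_star θ) y.2 hy).2.2
      exact h
    have hunitB : IsUnit (y' : B) := by
      let u : Bˣ := ⟨p θ, p θ, hp_sq θ, hp_sq θ⟩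
      have hlt : ‖(y' : B) - (u : B)‖ < ‖((u⁻¹ : Bˣ) : B)‖⁻¹ := by
        show ‖(y' : B) - p θ‖ < ‖p θ‖⁻¹
        rw [hp_norm θ, inv_one, norm_sub_rev]
        exact h1
      exact (u.ofNearby _ hlt).isUnit
    have hunitS : IsUnit y' := (StarSubalgebra.coe_isUnit S).mp hunitB
    have hχ' : χ y' ≠ 0 := (hunitS.map χ).ne_zero
    have hre : χ y' = ((χ y).re : ℂ) := by
      rw [hy', map_smul, map_add, map_star, smul_eq_mul]
      have := Complex.add_conj (χ y)
      rw [Complex.star_def, this]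
      push_cast
      ring
    intro h0
    apply hχ'
    rw [hre, h0]
    simp
  let Up : Set ℝ := {θ | ∃ y : S, ‖p θ - (y : B)‖ < 1 ∧ 0 < (χ y).re}
  let Um : Set ℝ := {θ | ∃ y : S, ‖p θ - (y : B)‖ < 1 ∧ (χ y).re < 0}
  have hUp_open : IsOpen Up := by
    rw [isOpen_iff_mem_nhds]
    rintro θ ⟨y, hy, hypos⟩
    have hopen : IsOpen {θ' : ℝ | ‖p θ' - (y : B)‖ < 1} :=
      isOpen_lt (by fun_prop) continuous_const
    exact Filter.mem_of_superset (hopen.mem_nhds hy) (fun θ' hθ' => ⟨y, hθ', hypos⟩)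
  have hUm_open : IsOpen Um := by
    rw [isOpen_iff_mem_nhds]
    rintro θ ⟨y, hy, hyneg⟩
    have hopen : IsOpen {θ' : ℝ | ‖p θ' - (y : B)‖ < 1} :=
      isOpen_lt (by fun_prop) continuous_const
    exact Filter.mem_of_superset (hopen.mem_nhds hy) (fun θ' hθ' => ⟨y, hθ', hyneg⟩)
  have hcover : ∀ θ, θ ∈ Up ∨ θ ∈ Um := by
    intro θ
    obtain ⟨y, hyS, hy⟩ := hnear θ
    rcases lt_trichotomy (χ ⟨y, hyS⟩).re 0 with h | h | h
    · exact Or.inr ⟨⟨y, hyS⟩, hy, h⟩
    · exact absurd h (key θ ⟨y, hyS⟩ hy)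
    · exact Or.inl ⟨⟨y, hyS⟩, hy, h⟩
  have hdisj : ∀ θ, θ ∈ Up → θ ∈ Um → False := by
    rintro θ ⟨y, hy, hypos⟩ ⟨z, hz, hzneg⟩
    have hden : 0 < (χ y).re - (χ z).re := by linarith
    set a : ℝ := -(χ z).re / ((χ y).re - (χ z).re) with ha_def
    set b : ℝ := (χ y).re / ((χ y).re - (χ z).re) with hb_def
    have ha : 0 ≤ a := div_nonneg (by linarith) hden.le
    have hb : 0 ≤ b := div_nonneg hypos.le hden.le
    have hab : a + b = 1 := by
      rw [ha_def, hb_def]
      field_simp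
      ring
    set w : S := (a : ℂ) • y + (b : ℂ) • z with hw_def
    have hw : ‖p θ - (w : B)‖ < 1 := by
      have e : p θ - (w : B) = (a : ℂ) • (p θ - (y : B)) + (b : ℂ) • (p θ - (z : B)) := by
        have hone : p θ = (a : ℂ) • p θ + (b : ℂ) • p θ := by
          rw [← add_smul, ← Complex.ofReal_add, hab]
          simp
        rw [hw_def]
        simp only [AddMemClass.coe_add, SetLike.val_smul, smul_sub]
        nth_rewrite 1 [hone]
        abel
      rw [e]
      calc ‖(a : ℂ) • (p θ - (y : B)) + (b : ℂ) • (p θ - (z : B))‖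
          ≤ ‖(a : ℂ) • (p θ - (y : B))‖ + ‖(b : ℂ) • (p θ - (z : B))‖ := norm_add_le _ _
        _ = a * ‖p θ - (y : B)‖ + b * ‖p θ - (z : B)‖ := by
            rw [norm_smul, norm_smul, Complex.norm_real, Complex.norm_real,
              Real.norm_of_nonneg ha, Real.norm_of_nonneg hb]
        _ < 1 := by
            rcases eq_or_lt_of_le ha with h0 | hpos
            · have hb1 : b = 1 := by linarith
              rw [← h0, hb1]
              linarith
            · have h3 : a * ‖p θ - (y : B)‖ < a * 1 := mul_lt_mul_of_pos_left hy hpos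
              have h4 : b * ‖p θ - (z : B)‖ ≤ b * 1 := mul_le_mul_of_nonneg_left hz.le hb
              linarith
    have hzero : (χ w).re = 0 := by
      rw [hw_def, map_add, map_smul, map_smul]
      simp only [smul_eq_mul, Complex.add_re, Complex.re_ofReal_mul]
      rw [ha_def, hb_def]
      field_simp
      ring
    exact key θ w hw hzero
  have hθ₀ : θ₀ ∈ Um := ⟨⟨y₀, hy₀⟩, h₀, by rw [hχy₀]; simpa using hm⟩
  have hθ₁ : θ₁ ∈ Um := by
    rcases hcover θ₁ with h | h
    · exfalso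
      have hpre : IsPreconnected (Set.univ : Set ℝ) := isPreconnected_univ
      obtain ⟨θ, -, h1, h2⟩ := hpre Up Um hUp_open hUm_open (fun θ _ => hcover θ)
        ⟨θ₁, trivial, h⟩ ⟨θ₀, trivial, hθ₀⟩
      exact hdisj θ h1 h2
    · exact h
  obtain ⟨y, hy, hyneg⟩ := hθ₁
  obtain ⟨hmem, hstar, hclose⟩ := sa_part_close S (hp_star θ₁) y.2 hy
  have hre : χ ⟨(1 / 2 : ℂ) • ((y : B) + star (y : B)), hmem⟩ = ((χ y).re : ℂ) := by
    have e : (⟨(1 / 2 : ℂ) • ((y : B) + star (y : B)), hmem⟩ : S) = (1 / 2 : ℂ) • (y + star y) :=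
      rfl
    rw [e, map_smul, map_add, map_star, smul_eq_mul]
    have := Complex.add_conj (χ y)
    rw [Complex.star_def, this]
    push_cast
    ring
  refine ⟨(1 / 2 : ℂ) • ((y : B) + star (y : B)), hmem, (χ y).re, hyneg, hstar, hclose, ?_⟩
  set a₁ : S := ⟨(1 / 2 : ℂ) • ((y : B) + star (y : B)), hmem⟩ - algebraMap ℂ S (((χ y).re : ℝ) : ℂ)
    with ha₁
  have hχ₁ : χ a₁ = 0 := by
    rw [ha₁, map_sub, hχalg, hre, sub_self]
  have hT : ¬ IsUnit (star a₀ * a₀ + star a₁ * a₁) := by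
    intro h
    have h0 := (h.map χ).ne_zero
    apply h0
    rw [map_add, map_mul, map_mul, hχ, hχ₁, mul_zero, mul_zero, add_zero]
  intro hB
  apply hT
  exact (StarSubalgebra.coe_isUnit S).mp hB

end Transport

end Vale.Agent.Lib.P096
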