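import Mathlib
import Vale.Agent.Lib.P096.Corner

/-!
The path of symmetries attached to an element `v` with `v * star v * v = v` and `v * v = 0`,
and the theorem that
a closed commutative star subalgebra of operators stays at distance at least one from one of
these symmetries.
-/

namespace Vale.Agent.Lib.P096

section Path

variable {B : Type*} [CStarAlgebra B]

/-- The element `cos θ • (star v * v) + sin θ • v`. -/
noncomputable def cornerW (v : B) (θ : ℝ) : B :=
  ((Real.cos θ : ℝ) : ℂ) • (star v * v) + ((Real.sin θ : ℝ) : ℂ) • v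

/-- The symmetry `1 - 2 q`, where `q = w * star w` for `w = cornerW v θ`. -/
noncomputable def cornerPath (v : B) (θ : ℝ) : B :=
  1 - (2 : ℂ) • (cornerW v θ * star (cornerW v θ))

theorem cornerW_continuous (v : B) : Continuous (cornerW v) := by
  unfold cornerW
  fun_prop

theorem cornerPath_continuous (v : B) : Continuous (cornerPath v) := by
  have h := cornerW_continuous v
  unfold cornerPath
  fun_prop

theorem cornerW_star (v : B) (θ : ℝ) :
    star (cornerW v θ) = ((Real.cos θ : ℝ) : ℂ) • (star v * v) + ((Real.sin θ : ℝ) : ℂ) • star v := by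
  unfold cornerW
  rw [star_add, star_smul, star_smul, star_mul, star_star, Complex.star_def,
    Complex.conj_ofReal, Complex.conj_ofReal]

theorem cornerW_star_mul_self (v : B) (hv2 : v * v = 0) (hv : v * star v * v = v) (θ : ℝ) :
    star (cornerW v θ) * cornerW v θ = star v * v := by
  have h1 : star v * v * (star v * v) = star v * v := by
    rw [← mul_assoc, mul_assoc (star v) v (star v), mul_assoc (star v) (v * star v) v, hv]
  have h2 : star v * v * v = 0 := by rw [mul_assoc, hv2, mul_zero]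
  have h3 : star v * (star v * v) = 0 := by
    rw [← mul_assoc, ← star_mul, hv2, star_zero, zero_mul]
  have hcs : ((Real.cos θ : ℝ) : ℂ) * ((Real.cos θ : ℝ) : ℂ)
      + ((Real.sin θ : ℝ) : ℂ) * ((Real.sin θ : ℝ) : ℂ) = 1 := by
    have := Real.cos_sq_add_sin_sq θ
    rw [← Complex.ofReal_mul, ← Complex.ofReal_mul, ← Complex.ofReal_add]
    rw [show Real.cos θ * Real.cos θ + Real.sin θ * Real.sin θ = 1 by nlinarith]
    simp
  rw [cornerW_star]
  unfold cornerW
  simp only [mul_add, add_mul, smul_mul_assoc, mul_smul_comm, smul_smul, h1, h2, h3, smul_zero,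
    add_zero, zero_add]
  rw [← add_smul, hcs, one_smul]

theorem cornerW_mul (v : B) (hv : v * star v * v = v) (θ : ℝ) :
    cornerW v θ * (star v * v) = cornerW v θ := by
  have h1 : star v * v * (star v * v) = star v * v := by
    rw [← mul_assoc, mul_assoc (star v) v (star v), mul_assoc (star v) (v * star v) v, hv]
  have h2 : v * (star v * v) = v := by rw [← mul_assoc, hv]
  unfold cornerW
  rw [add_mul, smul_mul_assoc, smul_mul_assoc, h1, h2]

theorem cornerPath_star (v : B) (θ : ℝ) : star (cornerPath v θ) = cornerPath v θ := by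
  unfold cornerPath
  have h2 : star (2 : ℂ) = 2 := by
    rw [Complex.star_def, map_ofNat]
  rw [star_sub, star_one, star_smul, star_mul, star_star, h2]

theorem cornerPath_sq (v : B) (hv2 : v * v = 0) (hv : v * star v * v = v) (θ : ℝ) :
    cornerPath v θ * cornerPath v θ = 1 := by
  have hq : cornerW v θ * star (cornerW v θ) * (cornerW v θ * star (cornerW v θ))
      = cornerW v θ * star (cornerW v θ) := by
    rw [← mul_assoc, mul_assoc (cornerW v θ) (star (cornerW v θ)) (cornerW v θ),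
      cornerW_star_mul_self v hv2 hv θ, cornerW_mul v hv θ]
  unfold cornerPath
  set q := cornerW v θ * star (cornerW v θ) with hqdef
  have e : (1 - (2 : ℂ) • q) * (1 - (2 : ℂ) • q)
      = 1 - (2 : ℂ) • q - (2 : ℂ) • q + (2 : ℂ) • ((2 : ℂ) • (q * q)) := by
    simp only [sub_mul, mul_sub, one_mul, mul_one, smul_mul_assoc, mul_smul_comm]
    module
  rw [e, hq]
  module

theorem cornerPath_zero (v : B) (hv : v * star v * v = v) :
    cornerPath v 0 = 1 - (2 : ℂ) • (star v * v) := by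
  have h1 : star v * v * (star v * v) = star v * v := by
    rw [← mul_assoc, mul_assoc (star v) v (star v), mul_assoc (star v) (v * star v) v, hv]
  have hw : cornerW v 0 = star v * v := by
    unfold cornerW
    rw [Real.cos_zero, Real.sin_zero]
    simp
  unfold cornerPath
  rw [hw, star_mul, star_star, h1]

theorem cornerPath_pi_div_two (v : B) :
    cornerPath v (Real.pi / 2) = 1 - (2 : ℂ) • (v * star v) := by
  have hw : cornerW v (Real.pi / 2) = v := by
    unfold cornerW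
    rw [Real.cos_pi_div_two, Real.sin_pi_div_two]
    simp
  unfold cornerPath
  rw [hw]

end Path

section Hilbert

variable {H : Type*} [NormedAddCommGroup H] [InnerProductSpace ℂ H] [CompleteSpace H]

/-- A self-adjoint operator whose quadratic form takes a negative value has a negative real
number in its spectrum. -/
theorem exists_neg_not_isUnit (y : H →L[ℂ] H) (hy : star y = y) (ξ : H)
    (hξ : (inner ℂ (y ξ) ξ).re < 0) :
    ∃ m : ℝ, m < 0 ∧ ¬ IsUnit (y - algebraMap ℂ (H →L[ℂ] H) (m : ℂ)) := by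
  by_contra hcon
  push Not at hcon
  have hsa : IsSelfAdjoint y := hy
  have hpos : 0 ≤ y := by
    rw [StarOrderedRing.nonneg_iff_spectrum_nonneg (R := ℝ) y hsa]
    intro t ht
    by_contra hneg
    push Not at hneg
    have h1 := hcon t hneg
    rw [spectrum.mem_iff] at ht
    apply ht
    have e : algebraMap ℝ (H →L[ℂ] H) t - y = -(y - algebraMap ℂ (H →L[ℂ] H) (t : ℂ)) := by
      rw [neg_sub]
      rfl
    rw [e]
    exact h1.neg
  have hpos' := (ContinuousLinearMap.nonneg_iff_isPositive y).1 hpos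
  have h2 := hpos'.re_inner_nonneg_left ξ
  exact absurd hξ (not_lt.2 h2)

/-- If `star a * a + star b * b` is not invertible then `a` and `b` have a common approximate
null vector. -/
theorem exists_small_of_not_isUnit (a b : H →L[ℂ] H)
    (h : ¬ IsUnit (star a * a + star b * b)) (ε : ℝ) (hε : 0 < ε) :
    ∃ ξ : H, ‖a ξ‖ ^ 2 + ‖b ξ‖ ^ 2 < ε * ‖ξ‖ ^ 2 := by
  by_contra hcon
  push Not at hcon
  apply h
  refine ContinuousLinearMap.isUnit_of_forall_le_norm_inner_map _ (c := ⟨ε, hε.le⟩) hε ?_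
  intro x
  have e : inner ℂ ((star a * a + star b * b) x) x = ((‖a x‖ ^ 2 + ‖b x‖ ^ 2 : ℝ) : ℂ) := by
    rw [add_apply, inner_add_left, mul_apply_eq_comp,
      mul_apply_eq_comp, ContinuousLinearMap.star_eq_adjoint,
      ContinuousLinearMap.star_eq_adjoint, ContinuousLinearMap.adjoint_inner_left,
      ContinuousLinearMap.adjoint_inner_left, inner_self_eq_norm_sq_to_K,
      inner_self_eq_norm_sq_to_K]
    push_cast
    rfl
  rw [e, Complex.norm_real, Real.norm_of_nonneg (by positivity)]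
  have h3 := hcon x
  show ‖x‖ ^ 2 * ε ≤ ‖a x‖ ^ 2 + ‖b x‖ ^ 2
  rw [mul_comm]
  exact h3

/-- Pythagoras for a projection. -/
theorem proj_pythagoras (g : H →L[ℂ] H) (hgg : g * g = g) (hgs : star g = g) (ξ : H) :
    ‖ξ‖ ^ 2 = ‖g ξ‖ ^ 2 + ‖ξ - g ξ‖ ^ 2 := by
  have horth : inner ℂ (g ξ) (ξ - g ξ) = 0 := by
    have h1 : inner ℂ (g ξ) (ξ - g ξ) = inner ℂ ξ (g (ξ - g ξ)) := by
      rw [← ContinuousLinearMap.adjoint_inner_left, ← ContinuousLinearMap.star_eq_adjoint, hgs]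
    have h2 : g (ξ - g ξ) = 0 := by
      rw [map_sub, ← mul_apply_eq_comp, hgg, sub_self]
    rw [h1, h2, inner_zero_right]
  have h3 := norm_add_sq_eq_norm_sq_add_norm_sq_of_inner_eq_zero (g ξ) (ξ - g ξ) horth
  rw [add_sub_cancel] at h3
  nlinarith [h3]

/-- Two orthogonal projections. -/
theorem proj_orth_sum_le (e f : H →L[ℂ] H) (hee : e * e = e) (hes : star e = e)
    (hff : f * f = f) (hfs : star f = f) (hef : e * f = 0) (ξ : H) :
    ‖e ξ‖ ^ 2 + ‖f ξ‖ ^ 2 ≤ ‖ξ‖ ^ 2 := by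
  have hfe : f * e = 0 := by
    have := congrArg star hef
    rwa [star_mul, hes, hfs, star_zero] at this
  have hgg : (e + f) * (e + f) = e + f := by
    rw [add_mul, mul_add, mul_add, hee, hff, hef, hfe, add_zero, zero_add]
  have hgs : star (e + f) = e + f := by rw [star_add, hes, hfs]
  have h1 := proj_pythagoras (e + f) hgg hgs ξ
  have horth : inner ℂ (e ξ) (f ξ) = 0 := by
    have h1 : inner ℂ (e ξ) (f ξ) = inner ℂ ξ (e (f ξ)) := by
      have h0 := ContinuousLinearMap.adjoint_inner_left e (f ξ) ξ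
      rw [← ContinuousLinearMap.star_eq_adjoint, hes] at h0
      exact h0
    rw [h1, ← mul_apply_eq_comp, hef, zero_apply,
      inner_zero_right]
  have h3 := norm_add_sq_eq_norm_sq_add_norm_sq_of_inner_eq_zero (e ξ) (f ξ) horth
  rw [add_apply] at h1
  nlinarith [h3, sq_nonneg ‖ξ - (e ξ + f ξ)‖]

/-- If the symmetry `1 - 2 e` of a projection `e`, shifted by a negative real number, shrinks
a vector, then more than half of the vector lies in the range of `e`. -/
theorem proj_large (e : H →L[ℂ] H) (hee : e * e = e) (hes : star e = e) (m : ℝ) (hm : m < 0)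
    (ξ : H)
    (h : ‖((1 - (2 : ℂ) • e) - algebraMap ℂ (H →L[ℂ] H) (m : ℂ)) ξ‖ < ‖ξ‖) :
    ‖ξ‖ ^ 2 < 2 * ‖e ξ‖ ^ 2 := by
  have horth : inner ℂ (e ξ) (ξ - e ξ) = 0 := by
    have h1 : inner ℂ (e ξ) (ξ - e ξ) = inner ℂ ξ (e (ξ - e ξ)) := by
      rw [← ContinuousLinearMap.adjoint_inner_left, ← ContinuousLinearMap.star_eq_adjoint, hes]
    have h2 : e (ξ - e ξ) = 0 := by
      rw [map_sub, ← mul_apply_eq_comp, hee, sub_self]
    rw [h1, h2, inner_zero_right]
  have hpy := proj_pythagoras e hee hes ξ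
  have hval : ((1 - (2 : ℂ) • e) - algebraMap ℂ (H →L[ℂ] H) (m : ℂ)) ξ
      = ((-1 - m : ℝ) : ℂ) • e ξ + ((1 - m : ℝ) : ℂ) • (ξ - e ξ) := by
    rw [Algebra.algebraMap_eq_smul_one]
    simp only [sub_apply, smul_apply,
      one_apply_eq_self]
    push_cast
    module
  have horth' : inner ℂ (((-1 - m : ℝ) : ℂ) • e ξ) (((1 - m : ℝ) : ℂ) • (ξ - e ξ)) = 0 := by
    rw [inner_smul_left, inner_smul_right, horth, mul_zero, mul_zero]
  have h3 := norm_add_sq_eq_norm_sq_add_norm_sq_of_inner_eq_zero _ _ horth'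
  rw [← hval, norm_smul, norm_smul, Complex.norm_real, Complex.norm_real] at h3
  have h4 : ‖((1 - (2 : ℂ) • e) - algebraMap ℂ (H →L[ℂ] H) (m : ℂ)) ξ‖ ^ 2 < ‖ξ‖ ^ 2 := by
    have := norm_nonneg (((1 - (2 : ℂ) • e) - algebraMap ℂ (H →L[ℂ] H) (m : ℂ)) ξ)
    nlinarith
  have h5 : ‖(-1 - m : ℝ)‖ * ‖(-1 - m : ℝ)‖ = (1 + m) ^ 2 := by
    rw [Real.norm_eq_abs, abs_mul_abs_self]
    ring
  have h6 : ‖(1 - m : ℝ)‖ * ‖(1 - m : ℝ)‖ = (1 - m) ^ 2 := by
    rw [Real.norm_eq_abs, abs_mul_abs_self]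
    ring
  set A := ‖e ξ‖ ^ 2 with hA
  set C := ‖ξ - e ξ‖ ^ 2 with hC
  have hA0 : 0 ≤ A := by positivity
  have hC0 : 0 ≤ C := by positivity
  -- (1+m)^2 A + (1-m)^2 C < A + C
  have h7 : (1 + m) ^ 2 * A + (1 - m) ^ 2 * C < A + C := by
    have h8 : ‖((1 - (2 : ℂ) • e) - algebraMap ℂ (H →L[ℂ] H) (m : ℂ)) ξ‖ ^ 2
        = (1 + m) ^ 2 * A + (1 - m) ^ 2 * C := by
      rw [hA, hC, ← h5, ← h6]
      nlinarith [h3]
    rw [← h8, ← hpy]
    exact h4
  -- divide by -m > 0
  have h9 : (2 - m) * C < (2 + m) * A := by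
    have h10 : (-m) * ((2 - m) * C) < (-m) * ((2 + m) * A) := by nlinarith
    exact lt_of_mul_lt_mul_left h10 (by linarith)
  rw [hpy]
  nlinarith

/-- A closed commutative star subalgebra of operators stays at distance at least one from one of
the symmetries `cornerPath v θ` of a nonzero `v` with `v * star v * v = v` and `v * v = 0`. -/
theorem exists_far_symmetry_corner (S : StarSubalgebra ℂ (H →L[ℂ] H))
    (hS : IsClosed (S : Set (H →L[ℂ] H)))
    (hcomm : ∀ a ∈ S, ∀ b ∈ S, a * b = b * a)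
    (v : H →L[ℂ] H) (hv2 : v * v = 0) (hv : v * star v * v = v) (hv0 : v ≠ 0) :
    ∃ θ : ℝ, ∀ y ∈ S, 1 ≤ ‖cornerPath v θ - y‖ := by
  have : Nontrivial (H →L[ℂ] H) := ⟨⟨v, 0, hv0⟩⟩
  by_contra hcon
  push Not at hcon
  -- the two projections
  have hee : star v * v * (star v * v) = star v * v := by
    rw [← mul_assoc, mul_assoc (star v) v (star v), mul_assoc (star v) (v * star v) v, hv]
  have hes : star (star v * v) = star v * v := by rw [star_mul, star_star]
  have hff : v * star v * (v * star v) = v * star v := by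
    rw [← mul_assoc, hv]
  have hfs : star (v * star v) = v * star v := by rw [star_mul, star_star]
  have hef : star v * v * (v * star v) = 0 := by
    rw [← mul_assoc, mul_assoc (star v) v v, hv2, mul_zero, zero_mul]
  have he0 : star v * v ≠ 0 := by
    intro h
    apply hv0
    rw [← hv, mul_assoc, h, mul_zero]
  obtain ⟨η, hη⟩ : ∃ η, (star v * v) η ≠ 0 := by
    by_contra h
    push Not at h
    exact he0 (ContinuousLinearMap.ext h)
  set ξ₀ := (star v * v) η with hξ₀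
  have hξ₀pos : 0 < ‖ξ₀‖ := norm_pos_iff.2 hη
  -- the starting approximant and a negative point of its spectrum
  obtain ⟨y, hyS, hy⟩ := hcon 0
  obtain ⟨hy₀S, hy₀star, hy₀⟩ := sa_part_close S (cornerPath_star v 0) hyS hy
  set y₀ := (1 / 2 : ℂ) • (y + star y) with hy₀def
  have hneg : (inner ℂ (y₀ ξ₀) ξ₀).re < 0 := by
    have hx : cornerPath v 0 ξ₀ = -ξ₀ := by
      have h1 : (star v * v) ξ₀ = ξ₀ := by
        rw [hξ₀, ← mul_apply_eq_comp, hee]
      rw [cornerPath_zero v hv, sub_apply, smul_apply, one_apply_eq_self, h1]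
      module
    have hsplit : y₀ ξ₀ = -ξ₀ - (cornerPath v 0 - y₀) ξ₀ := by
      rw [sub_apply, hx]
      abel
    have hnn : inner ℂ ξ₀ ξ₀ = ((‖ξ₀‖ ^ 2 : ℝ) : ℂ) := by
      rw [inner_self_eq_norm_sq_to_K]
      push_cast
      rfl
    have h1 : |(inner ℂ ((cornerPath v 0 - y₀) ξ₀) ξ₀).re| ≤ ‖cornerPath v 0 - y₀‖ * ‖ξ₀‖ * ‖ξ₀‖ := by
      calc |(inner ℂ ((cornerPath v 0 - y₀) ξ₀) ξ₀).re|
          ≤ ‖inner ℂ ((cornerPath v 0 - y₀) ξ₀) ξ₀‖ := Complex.abs_re_le_norm _
        _ ≤ ‖(cornerPath v 0 - y₀) ξ₀‖ * ‖ξ₀‖ := norm_inner_le_norm _ _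
        _ ≤ ‖cornerPath v 0 - y₀‖ * ‖ξ₀‖ * ‖ξ₀‖ := by
            gcongr
            exact ContinuousLinearMap.le_opNorm _ _
    rw [hsplit, inner_sub_left, inner_neg_left, Complex.sub_re, Complex.neg_re, hnn,
      Complex.ofReal_re]
    have h2 := neg_abs_le (inner ℂ ((cornerPath v 0 - y₀) ξ₀) ξ₀).re
    have h3 : ‖cornerPath v 0 - y₀‖ * ‖ξ₀‖ * ‖ξ₀‖ < 1 * ‖ξ₀‖ * ‖ξ₀‖ := by
      gcongr
    nlinarith
  obtain ⟨m, hm, hnu⟩ := exists_neg_not_isUnit y₀ hy₀star ξ₀ hneg
  -- transport to the other end of the path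
  obtain ⟨y₁, hy₁S, m₁, hm₁, hy₁star, hy₁, hT⟩ :=
    neg_transport S hS hcomm (cornerPath v) (cornerPath_continuous v) (cornerPath_star v)
      (cornerPath_sq v hv2 hv) hcon 0 (Real.pi / 2) y₀ hy₀S hy₀ m hm hnu
  set a₀ := y₀ - algebraMap ℂ (H →L[ℂ] H) (m : ℂ) with ha₀
  set a₁ := y₁ - algebraMap ℂ (H →L[ℂ] H) (m₁ : ℂ) with ha₁
  set r₀ := ‖cornerPath v 0 - y₀‖ with hr₀
  set r₁ := ‖cornerPath v (Real.pi / 2) - y₁‖ with hr₁
  set δ := min (1 - r₀) (1 - r₁) with hδ
  have hδpos : 0 < δ := lt_min (by linarith) (by linarith)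
  obtain ⟨ξ, hξ⟩ := exists_small_of_not_isUnit a₀ a₁ hT (δ ^ 2) (by positivity)
  have hξpos : 0 < ‖ξ‖ := by
    by_contra h
    have h0 : ‖ξ‖ = 0 := le_antisymm (not_lt.1 h) (norm_nonneg _)
    rw [h0] at hξ
    nlinarith [sq_nonneg ‖a₀ ξ‖, sq_nonneg ‖a₁ ξ‖]
  have hsmall₀ : ‖a₀ ξ‖ < δ * ‖ξ‖ := by
    have h1 : ‖a₀ ξ‖ ^ 2 < (δ * ‖ξ‖) ^ 2 := by nlinarith [sq_nonneg ‖a₁ ξ‖]
    exact lt_of_pow_lt_pow_left₀ 2 (by positivity) h1
  have hsmall₁ : ‖a₁ ξ‖ < δ * ‖ξ‖ := by
    have h1 : ‖a₁ ξ‖ ^ 2 < (δ * ‖ξ‖) ^ 2 := by nlinarith [sq_nonneg ‖a₀ ξ‖]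
    exact lt_of_pow_lt_pow_left₀ 2 (by positivity) h1
  have hshrink₀ :
      ‖((1 - (2 : ℂ) • (star v * v)) - algebraMap ℂ (H →L[ℂ] H) (m : ℂ)) ξ‖ < ‖ξ‖ := by
    have e : ((1 - (2 : ℂ) • (star v * v)) - algebraMap ℂ (H →L[ℂ] H) (m : ℂ)) ξ
        = (cornerPath v 0 - y₀) ξ + a₀ ξ := by
      rw [← add_apply, ha₀, cornerPath_zero v hv]
      congr 1
      abel
    rw [e]
    calc ‖(cornerPath v 0 - y₀) ξ + a₀ ξ‖
        ≤ ‖(cornerPath v 0 - y₀) ξ‖ + ‖a₀ ξ‖ := norm_add_le _ _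
      _ ≤ r₀ * ‖ξ‖ + ‖a₀ ξ‖ := by
          gcongr
          exact ContinuousLinearMap.le_opNorm _ _
      _ < r₀ * ‖ξ‖ + δ * ‖ξ‖ := by linarith
      _ ≤ ‖ξ‖ := by
          have hle : δ ≤ 1 - r₀ := min_le_left _ _
          nlinarith
  have hshrink₁ :
      ‖((1 - (2 : ℂ) • (v * star v)) - algebraMap ℂ (H →L[ℂ] H) (m₁ : ℂ)) ξ‖ < ‖ξ‖ := by
    have e : ((1 - (2 : ℂ) • (v * star v)) - algebraMap ℂ (H →L[ℂ] H) (m₁ : ℂ)) ξ
        = (cornerPath v (Real.pi / 2) - y₁) ξ + a₁ ξ := by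
      rw [← add_apply, ha₁, cornerPath_pi_div_two v]
      congr 1
      abel
    rw [e]
    calc ‖(cornerPath v (Real.pi / 2) - y₁) ξ + a₁ ξ‖
        ≤ ‖(cornerPath v (Real.pi / 2) - y₁) ξ‖ + ‖a₁ ξ‖ := norm_add_le _ _
      _ ≤ r₁ * ‖ξ‖ + ‖a₁ ξ‖ := by
          gcongr
          exact ContinuousLinearMap.le_opNorm _ _
      _ < r₁ * ‖ξ‖ + δ * ‖ξ‖ := by linarith
      _ ≤ ‖ξ‖ := by
          have hle : δ ≤ 1 - r₁ := min_le_right _ _
          nlinarith
  have h0 := proj_large (star v * v) hee hes m hm ξ hshrink₀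
  have h1 := proj_large (v * star v) hff hfs m₁ hm₁ ξ hshrink₁
  have h2 := proj_orth_sum_le (star v * v) (v * star v) hee hes hff hfs hef ξ
  linarith

/-- Von Neumann algebra form. -/
theorem cornerPath_mem (N : VonNeumannAlgebra H) {v : H →L[ℂ] H} (hv : v ∈ N) (θ : ℝ) :
    cornerPath v θ ∈ N := by
  have hw : cornerW v θ ∈ N :=
    add_mem (vn_smul_mem N _ (mul_mem (star_mem hv) hv)) (vn_smul_mem N _ hv)
  exact sub_mem (one_mem N) (vn_smul_mem N _ (mul_mem hw (star_mem hw)))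

/-- A commutative von Neumann algebra stays at distance at least one from some symmetry of any
von Neumann algebra containing a nonzero `v` with `v * star v * v = v` and `v * v = 0`. -/
theorem exists_far_symmetry_corner_vn (M N : VonNeumannAlgebra H)
    (hM : ∀ a ∈ M, ∀ b ∈ M, a * b = b * a)
    (v : H →L[ℂ] H) (hvN : v ∈ N) (hv2 : v * v = 0) (hv : v * star v * v = v) (hv0 : v ≠ 0) :
    ∃ x ∈ N, star x = x ∧ x * x = 1 ∧ ∀ y ∈ M, 1 ≤ ‖x - y‖ := by
  obtain ⟨θ, hθ⟩ := exists_far_symmetry_corner M.toStarSubalgebra (vn_isClosed M) hM v hv2 hv hv0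
  exact ⟨cornerPath v θ, cornerPath_mem N hvN θ, cornerPath_star v θ, cornerPath_sq v hv2 hv θ, hθ⟩

end Hilbert

end Vale.Agent.Lib.P096
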