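import Mathlib
import Vale.Agent.Lib.P096.NC.Assemble

/-!
# P096: finite against infinite von Neumann algebras

A von Neumann algebra in which every isometry is unitary stays at distance at least one from
every non-unitary isometry.
-/

namespace Vale.Agent.Lib.P096

section Finite

variable {H : Type*} [NormedAddCommGroup H] [InnerProductSpace ℂ H] [CompleteSpace H]

/-- The spectrum of `star y * y` lies above `c ^ 2` if `y` is bounded below by `c`. -/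
theorem spectrum_star_mul_self_ge (y : H →L[ℂ] H) (c : ℝ) (hc0 : 0 ≤ c)
    (hc : ∀ ξ, c * ‖ξ‖ ≤ ‖y ξ‖) : ∀ r ∈ spectrum ℝ (star y * y), c ^ 2 ≤ r := by
  intro r hr
  by_contra hlt
  push Not at hlt
  rw [spectrum.mem_iff] at hr
  apply hr
  have hpos : 0 < c ^ 2 - r := by linarith
  have hu : IsUnit (star y * y - algebraMap ℝ (H →L[ℂ] H) r) := by
    refine ContinuousLinearMap.isUnit_of_forall_le_norm_inner_map _ (c := ⟨c ^ 2 - r, hpos.le⟩)
      hpos ?_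
    intro ξ
    have e : inner ℂ ((star y * y - algebraMap ℝ (H →L[ℂ] H) r) ξ) ξ
        = ((‖y ξ‖ ^ 2 - r * ‖ξ‖ ^ 2 : ℝ) : ℂ) := by
      have h1 : algebraMap ℝ (H →L[ℂ] H) r = algebraMap ℂ (H →L[ℂ] H) (r : ℂ) :=
        IsScalarTower.algebraMap_apply ℝ ℂ (H →L[ℂ] H) r
      rw [h1, Algebra.algebraMap_eq_smul_one, sub_apply, smul_apply, one_apply_eq_self,
        inner_sub_left, mul_apply_eq_comp, ContinuousLinearMap.star_eq_adjoint,
        ContinuousLinearMap.adjoint_inner_left, inner_smul_left, inner_self_eq_norm_sq_to_K,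
        inner_self_eq_norm_sq_to_K, Complex.conj_ofReal]
      push_cast
      rfl
    rw [e, Complex.norm_real]
    have h1 : (c * ‖ξ‖) ^ 2 ≤ ‖y ξ‖ ^ 2 :=
      pow_le_pow_left₀ (mul_nonneg hc0 (norm_nonneg _)) (hc ξ) 2
    show ‖ξ‖ ^ 2 * (c ^ 2 - r) ≤ ‖(‖y ξ‖ ^ 2 - r * ‖ξ‖ ^ 2 : ℝ)‖
    calc ‖ξ‖ ^ 2 * (c ^ 2 - r) ≤ ‖y ξ‖ ^ 2 - r * ‖ξ‖ ^ 2 := by nlinarith
      _ ≤ ‖(‖y ξ‖ ^ 2 - r * ‖ξ‖ ^ 2 : ℝ)‖ := Real.le_norm_self _
  have e2 : algebraMap ℝ (H →L[ℂ] H) r - star y * y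
      = -(star y * y - algebraMap ℝ (H →L[ℂ] H) r) := by
    rw [neg_sub]
  rw [e2]
  exact hu.neg

/-- A bounded-below element of a von Neumann algebra is an isometry of the algebra up to a
right factor from the algebra (polar part). -/
theorem exists_isometry_of_bddBelow (M : VonNeumannAlgebra H) (y : H →L[ℂ] H) (hy : y ∈ M)
    (c : ℝ) (hc0 : 0 < c) (hc : ∀ ξ, c * ‖ξ‖ ≤ ‖y ξ‖) :
    ∃ g ∈ M, star (y * g) * (y * g) = 1 := by
  obtain ⟨a, ha_def⟩ : ∃ a : H →L[ℂ] H, a = star y * y := ⟨_, rfl⟩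
  have ha : IsSelfAdjoint a := by
    rw [ha_def]
    exact IsSelfAdjoint.star_mul_self y
  have haM : a ∈ M := by
    rw [ha_def]
    exact mul_mem (star_mem hy) hy
  have hspec : ∀ r ∈ spectrum ℝ a, c ^ 2 ≤ r := by
    rw [ha_def]
    exact spectrum_star_mul_self_ge y c hc0.le hc
  have ht : 0 < c ^ 2 / 2 := by positivity
  obtain ⟨G, hGs, hGc, hG⟩ := exists_inv_sqrt_on_cut a ha ht
  have hGM : G ∈ M :=
    vn_mem_of_commute M G
      (fun z hz => hGc z ((VonNeumannAlgebra.mem_commutant_iff.1 hz) a haM).symm)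
  have hunit : IsUnit (cutPos a (c ^ 2 / 2)) := by
    unfold cutPos
    rw [isUnit_cfc_iff (fun r : ℝ => max (r - c ^ 2 / 2) 0) a (by fun_prop) ha]
    intro r hr
    have h2 := hspec r hr
    have h3 : 0 < r - c ^ 2 / 2 := by linarith
    show max (r - c ^ 2 / 2) 0 ≠ 0
    rw [max_eq_left h3.le]
    exact h3.ne'
  have hGaG : G * a * G = 1 := by
    obtain ⟨u, hu⟩ := hunit
    have h1 : (G * a * G - 1) * (u : H →L[ℂ] H) * ((u⁻¹ : (H →L[ℂ] H)ˣ) : H →L[ℂ] H) = 0 := by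
      rw [hu, hG, zero_mul]
    rw [mul_assoc, Units.mul_inv, mul_one] at h1
    exact sub_eq_zero.1 h1
  refine ⟨G, hGM, ?_⟩
  rw [star_mul, hGs]
  calc G * star y * (y * G) = G * (star y * y) * G := by simp only [mul_assoc]
    _ = 1 := by rw [← ha_def, hGaG]

/-- A von Neumann algebra in which every isometry is unitary stays at distance at least one
from every non-unitary isometry. -/
theorem far_isometry_of_finite (M : VonNeumannAlgebra H)
    (hM : ∀ w ∈ M, star w * w = 1 → w * star w = 1)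
    (s : H →L[ℂ] H) (hs : star s * s = 1) (hs' : s * star s ≠ 1) : ∀ y ∈ M, 1 ≤ ‖s - y‖ := by
  intro y hy
  by_contra hlt
  push Not at hlt
  have hnt : Nontrivial (H →L[ℂ] H) := ⟨⟨s * star s, 1, hs'⟩⟩
  have hsnorm : ‖s‖ = 1 := by
    have h := CStarRing.norm_star_mul_self (x := s)
    rw [hs, norm_one] at h
    nlinarith [norm_nonneg s]
  have hsiso : ∀ ξ, ‖s ξ‖ = ‖ξ‖ := by
    intro ξ
    have h0 := ContinuousLinearMap.adjoint_inner_left s ξ (s ξ)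
    rw [← ContinuousLinearMap.star_eq_adjoint, ← mul_apply_eq_comp, hs, one_apply_eq_self,
      inner_self_eq_norm_sq_to_K, inner_self_eq_norm_sq_to_K] at h0
    have h1 : ‖ξ‖ ^ 2 = ‖s ξ‖ ^ 2 := by exact_mod_cast h0
    exact ((sq_eq_sq₀ (norm_nonneg _) (norm_nonneg _)).1 h1).symm
  have hc0 : 0 < 1 - ‖s - y‖ := by linarith
  have hc : ∀ ξ, (1 - ‖s - y‖) * ‖ξ‖ ≤ ‖y ξ‖ := by
    intro ξ
    have h1 : s ξ = (s - y) ξ + y ξ := by rw [sub_apply]; abel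
    have h2 : ‖s ξ‖ ≤ ‖(s - y) ξ‖ + ‖y ξ‖ := by
      calc ‖s ξ‖ = ‖(s - y) ξ + y ξ‖ := by rw [← h1]
        _ ≤ ‖(s - y) ξ‖ + ‖y ξ‖ := norm_add_le _ _
    have h3 : ‖(s - y) ξ‖ ≤ ‖s - y‖ * ‖ξ‖ := ContinuousLinearMap.le_opNorm _ _
    rw [hsiso ξ] at h2
    linarith
  obtain ⟨g, hgM, hw⟩ := exists_isometry_of_bddBelow M y hy (1 - ‖s - y‖) hc0 hc
  have hww := hM (y * g) (mul_mem hy hgM) hw
  have hu : IsUnit (star s * y) := by
    have e : star s * y = 1 - star s * (s - y) := by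
      rw [mul_sub, hs]
      abel
    rw [e]
    apply isUnit_one_sub_of_norm_lt_one
    calc ‖star s * (s - y)‖ ≤ ‖star s‖ * ‖s - y‖ := norm_mul_le _ _
      _ = ‖s - y‖ := by rw [norm_star, hsnorm, one_mul]
      _ < 1 := hlt
  obtain ⟨u, hu'⟩ := hu
  have hyk : y * (g * star (y * g)) = 1 := by
    rw [← mul_assoc]
    exact hww
  have hly : ((u⁻¹ : (H →L[ℂ] H)ˣ) : H →L[ℂ] H) * star s * y = 1 := by
    rw [mul_assoc, ← hu', Units.inv_mul]
  have hkl : g * star (y * g) = ((u⁻¹ : (H →L[ℂ] H)ˣ) : H →L[ℂ] H) * star s := by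
    calc g * star (y * g)
        = (((u⁻¹ : (H →L[ℂ] H)ˣ) : H →L[ℂ] H) * star s * y) * (g * star (y * g)) := by
          rw [hly, one_mul]
      _ = ((u⁻¹ : (H →L[ℂ] H)ˣ) : H →L[ℂ] H) * star s * (y * (g * star (y * g))) := by
          rw [mul_assoc]
      _ = ((u⁻¹ : (H →L[ℂ] H)ˣ) : H →L[ℂ] H) * star s := by rw [hyk, mul_one]
  have h1 : y * ((u⁻¹ : (H →L[ℂ] H)ˣ) : H →L[ℂ] H) * star s = 1 := by
    rw [mul_assoc, ← hkl, hyk]
  have h2 : s = y * ((u⁻¹ : (H →L[ℂ] H)ˣ) : H →L[ℂ] H) := by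
    calc s = (y * ((u⁻¹ : (H →L[ℂ] H)ˣ) : H →L[ℂ] H) * star s) * s := by rw [h1, one_mul]
      _ = y * ((u⁻¹ : (H →L[ℂ] H)ˣ) : H →L[ℂ] H) * (star s * s) := by rw [mul_assoc]
      _ = y * ((u⁻¹ : (H →L[ℂ] H)ˣ) : H →L[ℂ] H) := by rw [hs, mul_one]
  apply hs'
  calc s * star s = y * ((u⁻¹ : (H →L[ℂ] H)ˣ) : H →L[ℂ] H) * star s := by rw [← h2]
    _ = 1 := h1

end Finite

end Vale.Agent.Lib.P096
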